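import Vale.Agent.P084.Main

/-- Tingley's problem has a positive answer when `X` is finite-dimensional: every
finite-dimensional real normed space has the Mazur-Ulam property. -/
theorem Vale.Agent.Results.P084.FiniteDim.result
    (X Y : Type*) [NormedAddCommGroup X] [NormedSpace ℝ X] [FiniteDimensional ℝ X]
    [NormedAddCommGroup Y] [NormedSpace ℝ Y]
    (f : Metric.sphere (0 : X) 1 → Metric.sphere (0 : Y) 1)
    (hf : Isometry f) (hs : Function.Surjective f) :
    ∃ T : X ≃ₗᵢ[ℝ] Y, ∀ x : Metric.sphere (0 : X) 1, T x = f x :=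
  Vale.Agent.P084.tingley_finiteDimensional f hf hs
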