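import Vale.Agent.P084.Full

/-- Tingley's problem has a positive answer: every surjective isometry between the unit spheres
of two real normed spaces is the restriction of a surjective real-linear isometry. -/
theorem Vale.Agent.Results.P084.Tingley.result
    (X Y : Type*) [NormedAddCommGroup X] [NormedSpace ℝ X]
    [NormedAddCommGroup Y] [NormedSpace ℝ Y]
    (f : Metric.sphere (0 : X) 1 → Metric.sphere (0 : Y) 1)
    (hf : Isometry f) (hs : Function.Surjective f) :
    ∃ T : X ≃ₗᵢ[ℝ] Y, ∀ x : Metric.sphere (0 : X) 1, T x = f x :=
  Vale.Agent.P084.tingley f hf hs
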